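import Vale.Agent.P121.Defs

open MeasureTheory
open scoped ENNReal

namespace Vale.Agent.P121

/-- The triples of cluster labels that carry the contact set: `{0,1,2}` and `{0,3,4}`. -/
def Good (k l n : Fin 5) : Prop :=
  ({k, l, n} : Finset (Fin 5)) = {0, 1, 2} ∨ ({k, l, n} : Finset (Fin 5)) = {0, 3, 4}

instance (k l n : Fin 5) : Decidable (Good k l n) := by unfold Good; infer_instance

lemma measurable_coulombCost : Measurable coulombCost := by
  unfold coulombCost
  fun_prop

section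
variable {Λ : Type*} [MeasurableSpace Λ]

/-- The marginal built from five parametrised clusters. -/
noncomputable def mu (m : Measure Λ) (P : Fin 5 → Λ → E3) : Measure E3 :=
  (6 : ℝ≥0∞)⁻¹ • (m.map (P 0) + m.map (P 1) + m.map (P 2) + m.map (P 0) + m.map (P 3) + m.map (P 4))

lemma lintegral_mu (m : Measure Λ) (P : Fin 5 → Λ → E3) (hP : ∀ k, Measurable (P k))
    {g : E3 → ℝ≥0∞} (hg : Measurable g) :
    ∫⁻ x, g x ∂(mu m P) = 6⁻¹ * (∫⁻ a, g (P 0 a) ∂m + ∫⁻ a, g (P 1 a) ∂m + ∫⁻ a, g (P 2 a) ∂m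
      + ∫⁻ a, g (P 0 a) ∂m + ∫⁻ a, g (P 3 a) ∂m + ∫⁻ a, g (P 4 a) ∂m) := by
  simp only [mu, lintegral_smul_measure, lintegral_add_measure, lintegral_map hg (hP _), smul_eq_mul]

lemma isProbabilityMeasure_mu (m : Measure Λ) [IsProbabilityMeasure m] (P : Fin 5 → Λ → E3)
    (hP : ∀ k, Measurable (P k)) : IsProbabilityMeasure (mu m P) := by
  constructor
  have h : ∀ k, (m.map (P k)) Set.univ = 1 := fun k => by
    rw [Measure.map_apply (hP k) MeasurableSet.univ]; simp
  simp only [mu, Measure.smul_apply, Measure.add_apply, h, smul_eq_mul]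
  rw [show (1 : ℝ≥0∞) + 1 + 1 + 1 + 1 + 1 = 6 by norm_num]
  exact ENNReal.inv_mul_cancel (by norm_num) (by norm_num)

/-- The triple map along labels `k, l, n`. -/
def tri (P : Fin 5 → Λ → E3) (k l n : Fin 5) (a : Λ) : E3 × E3 × E3 := (P k a, P l a, P n a)

lemma measurable_tri (P : Fin 5 → Λ → E3) (hP : ∀ k, Measurable (P k)) (k l n : Fin 5) :
    Measurable (tri P k l n) := (hP k).prodMk ((hP l).prodMk (hP n))

/-- The symmetric coupling carried by the two sheets. -/
noncomputable def gam (m : Measure Λ) (P : Fin 5 → Λ → E3) : Measure (E3 × E3 × E3) :=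
  (6 : ℝ≥0∞)⁻¹ • (m.map (tri P 0 1 2) + m.map (tri P 1 2 0) + m.map (tri P 2 0 1)
    + m.map (tri P 0 3 4) + m.map (tri P 3 4 0) + m.map (tri P 4 0 3))

lemma isCoupling_gam (m : Measure Λ) [IsProbabilityMeasure m] (P : Fin 5 → Λ → E3)
    (hP : ∀ k, Measurable (P k)) : IsCoupling (mu m P) (gam m P) := by
  have h1 : Measurable (fun p : E3 × E3 × E3 => p.1) := measurable_fst
  have h2 : Measurable (fun p : E3 × E3 × E3 => p.2.1) := measurable_snd.fst
  have h3 : Measurable (fun p : E3 × E3 × E3 => p.2.2) := measurable_snd.snd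
  refine ⟨⟨?_⟩, ?_, ?_, ?_⟩
  · have h : ∀ k l n, (m.map (tri P k l n)) Set.univ = 1 := fun k l n => by
      rw [Measure.map_apply (measurable_tri P hP k l n) MeasurableSet.univ]; simp
    simp only [gam, Measure.smul_apply, Measure.add_apply, h, smul_eq_mul]
    rw [show (1 : ℝ≥0∞) + 1 + 1 + 1 + 1 + 1 = 6 by norm_num]
    exact ENNReal.inv_mul_cancel (by norm_num) (by norm_num)
  · simp only [gam, mu, Measure.map_smul, Measure.map_add _ _ h1,
      Measure.map_map h1 (measurable_tri P hP _ _ _)]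
    rfl
  · simp only [gam, mu, Measure.map_smul, Measure.map_add _ _ h2,
      Measure.map_map h2 (measurable_tri P hP _ _ _)]
    congr 1
    have e : ∀ k l n, (fun p : E3 × E3 × E3 => p.2.1) ∘ tri P k l n = P l := fun _ _ _ => rfl
    simp only [e]
    abel
  · simp only [gam, mu, Measure.map_smul, Measure.map_add _ _ h3,
      Measure.map_map h3 (measurable_tri P hP _ _ _)]
    congr 1
    have e : ∀ k l n, (fun p : E3 × E3 × E3 => p.2.2) ∘ tri P k l n = P n := fun _ _ _ => rfl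
    simp only [e]
    abel

lemma exists_retraction [Nonempty Λ] (P : Fin 5 → Λ → E3) (hP : ∀ k, MeasurableEmbedding (P k))
    (hdisj : ∀ k l a b, P k a = P l b → k = l) :
    ∃ π : E3 → Fin 5 × Λ, Measurable π ∧ ∀ k a, π (P k a) = (k, a) := by
  have hQ : MeasurableEmbedding (fun q : Fin 5 × Λ => P q.1 q.2) := by
    refine ⟨?_, ?_, ?_⟩
    · rintro ⟨k, a⟩ ⟨l, b⟩ h
      have hkl : k = l := hdisj k l a b h
      subst hkl
      have := (hP k).injective h
      simp only at this
      rw [this]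
    · exact measurable_from_prod_countable_right (fun k => (hP k).measurable)
    · intro s hs
      have : (fun q : Fin 5 × Λ => P q.1 q.2) '' s = ⋃ k, P k '' (Prod.mk k ⁻¹' s) := by
        ext x
        simp only [Set.mem_image, Set.mem_iUnion, Set.mem_preimage, Prod.exists]
      rw [this]
      exact MeasurableSet.iUnion fun k =>
        (hP k).measurableSet_image.2 (measurable_prodMk_left hs)
  obtain ⟨π, hπ, hπe⟩ := hQ.exists_measurable_extend measurable_id (fun _ => inferInstance)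
  exact ⟨π, hπ, fun k a => congrFun hπe (k, a)⟩

theorem abstract_no_monge (m : Measure Λ) [IsProbabilityMeasure m] (P : Fin 5 → Λ → E3)
    (hP : ∀ k, MeasurableEmbedding (P k)) (hdisj : ∀ k l a b, P k a = P l b → k = l)
    (U : Fin 5 → Λ → ℝ≥0∞) (hU : ∀ k, Measurable (U k)) (hUb : ∀ k a, U k a ≤ 3)
    (heq : ∀ k l n a, Good k l n →
      U k a + U l a + U n a = coulombCost (P k a, P l a, P n a))
    (hlt : ∀ k l n a b c, (a = b ∧ a = c ∧ Good k l n) ∨
      U k a + U l b + U n c < coulombCost (P k a, P l b, P n c)) :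
    kantorovichValue (mu m P) < ∞ ∧ ¬ ∃ T₂ T₃, IsOptimalMongePlan (mu m P) T₂ T₃ := by
  haveI : Nonempty Λ := nonempty_of_isProbabilityMeasure m
  have hPm : ∀ k, Measurable (P k) := fun k => (hP k).measurable
  haveI := isProbabilityMeasure_mu m P hPm
  obtain ⟨π, hπ, hπe⟩ := exists_retraction P hP hdisj
  set μ := mu m P with hμ
  -- the dual potential
  set u : E3 → ℝ≥0∞ := fun x => U (π x).1 (π x).2 with hu
  have hum : Measurable u := by
    have : Measurable (fun q : Fin 5 × Λ => U q.1 q.2) :=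
      measurable_from_prod_countable_right (fun k => hU k)
    exact this.comp hπ
  have huP : ∀ k a, u (P k a) = U k a := fun k a => by simp only [hu, hπe]
  have hub : ∀ x, u x ≤ 3 := fun x => hUb _ _
  have hIfin : ∫⁻ x, u x ∂μ ≤ 3 := by
    calc ∫⁻ x, u x ∂μ ≤ ∫⁻ _, 3 ∂μ := lintegral_mono hub
      _ = 3 := by simp
  -- cost of the symmetric coupling
  have hgam : ∫⁻ p, coulombCost p ∂(gam m P) =
      ∫⁻ x, u x ∂μ + ∫⁻ x, u x ∂μ + ∫⁻ x, u x ∂μ := by
    have e : ∀ k l n, Good k l n → ∫⁻ p, coulombCost p ∂(m.map (tri P k l n)) =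
        ∫⁻ a, U k a ∂m + ∫⁻ a, U l a ∂m + ∫⁻ a, U n a ∂m := fun k l n h => by
      rw [lintegral_map measurable_coulombCost (measurable_tri P hPm k l n),
        ← lintegral_add_left (hU k), ← lintegral_add_left ((hU k).fun_add (hU l))]
      exact lintegral_congr fun a => (heq k l n a h).symm
    rw [hμ, lintegral_mu m P hPm hum]
    simp only [gam, lintegral_smul_measure, lintegral_add_measure, smul_eq_mul, huP]
    rw [e 0 1 2 (by decide), e 1 2 0 (by decide), e 2 0 1 (by decide), e 0 3 4 (by decide),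
      e 3 4 0 (by decide), e 4 0 3 (by decide)]
    ring
  have hK : kantorovichValue μ ≤ ∫⁻ x, u x ∂μ + ∫⁻ x, u x ∂μ + ∫⁻ x, u x ∂μ := by
    rw [← hgam]
    exact iInf₂_le (gam m P) (isCoupling_gam m P hPm)
  have hSfin : ∫⁻ x, u x ∂μ + ∫⁻ x, u x ∂μ + ∫⁻ x, u x ∂μ < ∞ := by
    calc _ ≤ (3 : ℝ≥0∞) + 3 + 3 := by gcongr
      _ < ∞ := by norm_num
  refine ⟨hK.trans_lt hSfin, ?_⟩
  rintro ⟨T₂, T₃, hT₂, hT₃, hm₂, hm₃, hopt⟩
  -- almost every point lies in one of the clusters
  have hΩm : MeasurableSet {x | P (π x).1 (π x).2 = x} := by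
    have : Measurable (fun q : Fin 5 × Λ => P q.1 q.2) :=
      measurable_from_prod_countable_right (fun k => hPm k)
    exact measurableSet_eq_fun (this.comp hπ) measurable_id
  have hΩ : ∀ᵐ x ∂μ, P (π x).1 (π x).2 = x := by
    have h : ∀ k, ∀ᵐ x ∂(m.map (P k)), P (π x).1 (π x).2 = x := fun k => by
      rw [ae_map_iff (hPm k).aemeasurable hΩm]
      exact Filter.Eventually.of_forall fun a => by simp only [hπe]
    rw [hμ, mu]
    refine Measure.ae_smul_measure ?_ _
    simp only [ae_add_measure_iff, h, and_self]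
  have hΩ₂ : ∀ᵐ x ∂μ, P (π (T₂ x)).1 (π (T₂ x)).2 = T₂ x := by
    have := hΩ
    rw [← hm₂, ae_map_iff hT₂.aemeasurable hΩm] at this
    exact this
  have hΩ₃ : ∀ᵐ x ∂μ, P (π (T₃ x)).1 (π (T₃ x)).2 = T₃ x := by
    have := hΩ
    rw [← hm₃, ae_map_iff hT₃.aemeasurable hΩm] at this
    exact this
  have hsum : ∀ g : E3 → ℝ≥0∞, Measurable g → ∫⁻ x, g x + g (T₂ x) + g (T₃ x) ∂μ =
      ∫⁻ x, g x ∂μ + ∫⁻ x, g x ∂μ + ∫⁻ x, g x ∂μ := fun g hg => by
    have hg2 : Measurable fun x => g x + g (T₂ x) := hg.add (hg.comp hT₂)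
    rw [lintegral_add_left hg2, lintegral_add_left hg,
      ← lintegral_map hg hT₂, ← lintegral_map hg hT₃, hm₂, hm₃]
  have hle : (fun x => u x + u (T₂ x) + u (T₃ x)) ≤ᵐ[μ] fun x => coulombCost (x, T₂ x, T₃ x) := by
    filter_upwards [hΩ, hΩ₂, hΩ₃] with x h1 h2 h3
    rcases hlt (π x).1 (π (T₂ x)).1 (π (T₃ x)).1 (π x).2 (π (T₂ x)).2 (π (T₃ x)).2 with
      ⟨hab, hac, hg⟩ | h
    · have := heq _ _ _ (π x).2 hg
      rw [h1] at this
      nth_rw 2 [hab] at this
      nth_rw 3 [hab] at this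
      rw [h2] at this
      nth_rw 2 [hac] at this
      nth_rw 2 [hac] at this
      rw [h3] at this
      exact this.le
    · rw [h1, h2, h3] at h
      exact h.le
  have hcm : Measurable fun x => coulombCost (x, T₂ x, T₃ x) :=
    measurable_coulombCost.comp (measurable_id.prodMk (hT₂.prodMk hT₃))
  have hae := ae_eq_of_ae_le_of_lintegral_le hle (by rw [hsum u hum]; exact hSfin.ne)
    hcm.aemeasurable (by rw [hsum u hum, hopt]; exact hK)
  have hcontact : ∀ᵐ x ∂μ, (π x).2 = (π (T₂ x)).2 ∧ (π x).2 = (π (T₃ x)).2 ∧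
      Good (π x).1 (π (T₂ x)).1 (π (T₃ x)).1 := by
    filter_upwards [hΩ, hΩ₂, hΩ₃, hae] with x h1 h2 h3 h4
    rcases hlt (π x).1 (π (T₂ x)).1 (π (T₃ x)).1 (π x).2 (π (T₂ x)).2 (π (T₃ x)).2 with
      h | h
    · exact h
    · rw [h1, h2, h3] at h
      exact absurd h4 h.ne
  -- counting on the first sheet
  set A₁ : Set Λ := {a | (π (T₂ (P 0 a))).1 = 1 ∨ (π (T₂ (P 0 a))).1 = 2} with hA₁
  have hlab : Measurable fun x => (π (T₂ x)).1 := (hπ.comp hT₂).fst
  have hA₁m : MeasurableSet A₁ := by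
    have : Measurable fun a => (π (T₂ (P 0 a))).1 := hlab.comp (hPm 0)
    exact (this (measurableSet_singleton 1)).union (this (measurableSet_singleton 2))
  have key : ∀ D : Set Λ, MeasurableSet D → m D = 2 * m (D ∩ A₁) := by
    intro D hD
    classical
    set h : E3 → ℝ≥0∞ := fun x => if (π x).1 = 1 ∧ (π x).2 ∈ D then 1 else 0 with hh
    have hhm : Measurable h := by
      refine Measurable.ite ?_ measurable_const measurable_const
      exact (hπ.fst (measurableSet_singleton 1)).inter (hπ.snd hD)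
    set g : E3 → ℝ≥0∞ := fun x => if (π x).2 ∈ D ∧ ((π x).1 = 1 ∨ (π x).1 = 2 ∨
      ((π x).1 = 0 ∧ ((π (T₂ x)).1 = 1 ∨ (π (T₂ x)).1 = 2))) then 1 else 0 with hg
    have hgm : Measurable g := by
      refine Measurable.ite ?_ measurable_const measurable_const
      exact (hπ.snd hD).inter ((hπ.fst (measurableSet_singleton 1)).union
        ((hπ.fst (measurableSet_singleton 2)).union ((hπ.fst (measurableSet_singleton 0)).inter
          ((hlab (measurableSet_singleton 1)).union (hlab (measurableSet_singleton 2))))))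
    have hcomb : ∀ k l n : Fin 5, Good k l n →
        ((if k = 1 then 1 else 0) + (if l = 1 then 1 else 0) + (if n = 1 then 1 else 0) : ℕ) =
          if (k = 1 ∨ k = 2 ∨ (k = 0 ∧ (l = 1 ∨ l = 2))) then 1 else 0 := by
      decide
    have hhg : (fun x => h x + h (T₂ x) + h (T₃ x)) =ᵐ[μ] g := by
      filter_upwards [hcontact] with x ⟨h1, h2, h3⟩
      simp only [hh, hg, ← h1, ← h2]
      by_cases hx : (π x).2 ∈ D
      · simp only [hx, and_true, true_and]
        have := congrArg (Nat.cast : ℕ → ℝ≥0∞) (hcomb _ _ _ h3)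
        push_cast at this
        exact this
      · simp [hx]
    have e1 := lintegral_congr_ae hhg
    rw [hsum h hhm, hμ, lintegral_mu m P hPm hhm, lintegral_mu m P hPm hgm] at e1
    have ind : ∀ S : Set Λ, MeasurableSet S → ∫⁻ a, (if a ∈ S then (1 : ℝ≥0∞) else 0) ∂m = m S :=
      fun S hS => by
        rw [← lintegral_indicator_one hS]
        exact lintegral_congr fun a => by simp [Set.indicator_apply]
    have i0 : ∫⁻ a, g (P 0 a) ∂m = m (D ∩ A₁) := by
      rw [← ind _ (hD.inter hA₁m)]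
      exact lintegral_congr fun a => by simp [hg, hπe, hA₁]
    have i1 : ∫⁻ a, g (P 1 a) ∂m = m D := by
      rw [← ind _ hD]
      exact lintegral_congr fun a => by simp [hg, hπe]
    have i2 : ∫⁻ a, g (P 2 a) ∂m = m D := by
      rw [← ind _ hD]
      exact lintegral_congr fun a => by simp [hg, hπe]
    have i3 : ∫⁻ a, g (P 3 a) ∂m = 0 := by simp [hg, hπe]
    have i4 : ∫⁻ a, g (P 4 a) ∂m = 0 := by simp [hg, hπe]
    have j0 : ∫⁻ a, h (P 0 a) ∂m = 0 := by simp [hh, hπe]
    have j1 : ∫⁻ a, h (P 1 a) ∂m = m D := by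
      rw [← ind _ hD]
      exact lintegral_congr fun a => by simp [hh, hπe]
    have j2 : ∫⁻ a, h (P 2 a) ∂m = 0 := by simp [hh, hπe]
    have j3 : ∫⁻ a, h (P 3 a) ∂m = 0 := by simp [hh, hπe]
    have j4 : ∫⁻ a, h (P 4 a) ∂m = 0 := by simp [hh, hπe]
    rw [i0, i1, i2, i3, i4, j0, j1, j2, j3, j4, ← mul_add, ← mul_add,
      ENNReal.mul_right_inj (by norm_num) (by norm_num)] at e1
    have e2 : m D + (m D + m D) = 2 * m (D ∩ A₁) + (m D + m D) := by
      calc m D + (m D + m D) = _ := by rw [← add_assoc]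
        _ = _ := by simpa using e1
        _ = _ := by ring
    exact (ENNReal.add_left_inj (by finiteness)).1 e2
  have k1 := key A₁ hA₁m
  have k2 := key Set.univ MeasurableSet.univ
  rw [Set.inter_self] at k1
  rw [Set.univ_inter, ← k1, measure_univ] at k2
  rw [← k2] at k1
  norm_num at k1

end

end Vale.Agent.P121
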