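import Mathlib

open scoped RealInnerProductSpace Topology ContDiff

namespace Vale.Agent.P121

variable {V : Type*} [NormedAddCommGroup V] [InnerProductSpace ℝ V]

/-- The gradient of `v ↦ 1/‖v‖`. -/
noncomputable def force (v : V) : V := -((‖v‖ ^ 3)⁻¹ • v)

lemma force_neg (v : V) : force (-v) = -force v := by simp [force]

/-- Global semiconvexity inequality for `1/‖·‖`. -/
lemma inv_norm_lower {v w : V} (hv : v ≠ 0) (hw : w ≠ 0) :
    ‖v‖⁻¹ + ⟪force v, w - v⟫ - ‖w - v‖ ^ 2 / (2 * ‖v‖ ^ 3) ≤ ‖w‖⁻¹ := by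
  have ha : 0 < ‖v‖ := norm_pos_iff.2 hv
  have hb : 0 < ‖w‖ := norm_pos_iff.2 hw
  have h1 : ‖w - v‖ ^ 2 = ‖w‖ ^ 2 - 2 * ⟪v, w⟫ + ‖v‖ ^ 2 := by
    rw [norm_sub_sq_real, real_inner_comm]
  have h2 : ⟪force v, w - v⟫ = -((‖v‖ ^ 3)⁻¹ * (⟪v, w⟫ - ‖v‖ ^ 2)) := by
    rw [force, inner_neg_left, real_inner_smul_left, inner_sub_right, real_inner_self_eq_norm_sq]
  rw [h1, h2]
  set a := ‖v‖
  set b := ‖w‖
  set s := ⟪v, w⟫
  have : b⁻¹ - (a⁻¹ + -((a ^ 3)⁻¹ * (s - a ^ 2)) - (b ^ 2 - 2 * s + a ^ 2) / (2 * a ^ 3)) =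
      (a - b) ^ 2 * (2 * a + b) / (2 * a ^ 3 * b) := by
    field_simp
    ring
  have h3 : 0 ≤ (a - b) ^ 2 * (2 * a + b) / (2 * a ^ 3 * b) := by positivity
  linarith

lemma contDiffAt_force {v : V} (hv : v ≠ 0) : ContDiffAt ℝ ω (force : V → V) v := by
  unfold force
  have h1 : ContDiffAt ℝ ω (fun v : V => ‖v‖) v := contDiffAt_norm ℝ hv
  have h2 : ‖v‖ ^ 3 ≠ 0 := pow_ne_zero _ (norm_ne_zero_iff.2 hv)
  exact (((h1.pow 3).inv h2).smul contDiffAt_id).neg

/-- The derivative of `force`. -/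
noncomputable def forceD (v : V) : V →L[ℝ] V :=
  -((‖v‖ ^ 3)⁻¹ • ContinuousLinearMap.id ℝ V) +
    ((3 * (‖v‖ ^ 5)⁻¹) • innerSL ℝ v).smulRight v

lemma forceD_apply (v h : V) :
    forceD v h = -((‖v‖ ^ 3)⁻¹ • h) + (3 * (‖v‖ ^ 5)⁻¹ * ⟪v, h⟫) • v := by
  simp [forceD]

lemma hasFDerivAt_force {v : V} (hv : v ≠ 0) : HasFDerivAt (force : V → V) (forceD v) v := by
  have ha : ‖v‖ ≠ 0 := norm_ne_zero_iff.2 hv
  have h1 : HasFDerivAt (fun x : V => ‖x‖ ^ 3) ((3 * ‖v‖) • innerSL ℝ v) v := by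
    have := hasFDerivAt_norm_rpow v (p := 3) (by norm_num)
    have e1 : (fun x : V => ‖x‖ ^ (3 : ℝ)) = fun x : V => ‖x‖ ^ 3 := by
      ext x; exact Real.rpow_natCast ‖x‖ 3
    have e2 : ‖v‖ ^ ((3 : ℝ) - 2) = ‖v‖ := by norm_num
    rwa [e1, e2] at this
  have h2 := (hasDerivAt_inv (pow_ne_zero 3 ha)).comp_hasFDerivAt v h1
  have h3 := (h2.smul (hasFDerivAt_id v)).neg
  refine h3.congr_fderiv ?_
  ext h
  simp only [forceD_apply, Function.comp, id, neg_apply,
    add_apply, smul_apply, ContinuousLinearMap.id_apply,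
    ContinuousLinearMap.smulRight_apply, innerSL_apply_apply, smul_eq_mul, neg_add]
  congr 1
  rw [← neg_smul]
  congr 1
  field_simp

/-- The operator `h ↦ 3 ⟪e, h⟫ e - h`. -/
noncomputable def hess (e h : V) : V := (3 * ⟪e, h⟫) • e - h

lemma forceD_unit {e : V} (he : ‖e‖ = 1) (h : V) : forceD e h = hess e h := by
  rw [forceD_apply, he, hess]; simp; abel

lemma forceD_neg_unit {e : V} (he : ‖e‖ = 1) (h : V) : forceD (-e) h = hess e h := by
  rw [forceD_apply, norm_neg, he, hess]; simp; abel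

lemma forceD_neg_two {e : V} (he : ‖e‖ = 1) (h : V) :
    forceD (-e - e) h = (8 : ℝ)⁻¹ • hess e h := by
  have e1 : -e - e = (-2 : ℝ) • e := by module
  rw [forceD_apply, e1, norm_smul, he, hess, real_inner_smul_left]
  norm_num
  module

lemma norm_hess_sq {e : V} (he : ‖e‖ = 1) (h : V) :
    ‖hess e h‖ ^ 2 = ‖h‖ ^ 2 + 3 * ⟪e, h⟫ ^ 2 := by
  rw [hess, norm_sub_sq_real, norm_smul, he, real_inner_smul_left, mul_one, Real.norm_eq_abs,
    sq_abs]
  ring

lemma norm_hess_le {e : V} (he : ‖e‖ = 1) (h : V) : ‖hess e h‖ ≤ 2 * ‖h‖ := by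
  have h1 : |⟪e, h⟫| ≤ ‖h‖ := by simpa [he] using abs_real_inner_le_norm e h
  have h2 : ⟪e, h⟫ ^ 2 ≤ ‖h‖ ^ 2 := by
    rw [← sq_abs]; exact pow_le_pow_left₀ (abs_nonneg _) h1 2
  have h3 := norm_hess_sq he h
  refine abs_le_of_sq_le_sq' ?_ (by positivity) |>.2
  nlinarith

lemma le_norm_hess {e : V} (he : ‖e‖ = 1) (h : V) : ‖h‖ ≤ ‖hess e h‖ := by
  have h3 := norm_hess_sq he h
  refine abs_le_of_sq_le_sq' ?_ (by positivity) |>.2
  nlinarith [sq_nonneg ⟪e, h⟫]

lemma hess_add (e h k : V) : hess e (h + k) = hess e h + hess e k := by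
  simp only [hess, inner_add_right]; module

lemma hess_sub (e h k : V) : hess e (h - k) = hess e h - hess e k := by
  simp only [hess, inner_sub_right]; module

lemma hess_smul (e h : V) (t : ℝ) : hess e (t • h) = t • hess e h := by
  simp only [hess, real_inner_smul_right]; module

lemma hess_zero (e : V) : hess e 0 = 0 := by simp [hess]

/-- The two force-balance equations (for the first and the third particle). -/
noncomputable def bal (e : V) (p : V × V × V) : V × V :=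
  (force (p.1 - p.2.1) + force (p.1 - p.2.2) + (40 : ℝ) • p.1,
    force (p.2.2 - p.1) + force (p.2.2 - p.2.1) - (5 / 4 : ℝ) • e + (40 : ℝ) • (p.2.2 + e))

lemma bal_base {e : V} (he : ‖e‖ = 1) : bal e (0, e, -e) = 0 := by
  have e1 : -e - e = (-2 : ℝ) • e := by module
  simp only [bal, force, zero_sub, sub_zero, neg_neg, norm_neg, he, e1, norm_smul]
  norm_num
  module

lemma contDiffAt_bal {e : V} (he : ‖e‖ = 1) : ContDiffAt ℝ ω (bal e) (0, e, -e) := by
  have he0 : e ≠ 0 := by rintro rfl; simp at he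
  have h2 : -e - e ≠ 0 := by
    have e1 : -e - e = (-2 : ℝ) • e := by module
    rw [e1]; exact smul_ne_zero (by norm_num) he0
  unfold bal
  refine ContDiffAt.prodMk ?_ ?_
  · refine ((ContDiffAt.comp _ (contDiffAt_force ?_) ?_).add
      (ContDiffAt.comp _ (contDiffAt_force ?_) ?_)).add ?_
    · simpa using he0
    · fun_prop
    · simpa using he0
    · fun_prop
    · fun_prop
  · refine (((ContDiffAt.comp _ (contDiffAt_force ?_) ?_).add
      (ContDiffAt.comp _ (contDiffAt_force ?_) ?_)).sub ?_).add ?_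
    · simpa using he0
    · fun_prop
    · exact h2
    · fun_prop
    · fun_prop
    · fun_prop

lemma exists_hasFDerivAt_bal {e : V} (he : ‖e‖ = 1) :
    ∃ D : (V × V × V) →L[ℝ] (V × V), HasFDerivAt (bal e) D (0, e, -e) ∧
      ∀ q : V × V × V, D q = (hess e (q.1 - q.2.1) + hess e (q.1 - q.2.2) + (40 : ℝ) • q.1,
        hess e (q.2.2 - q.1) + (8 : ℝ)⁻¹ • hess e (q.2.2 - q.2.1) + (40 : ℝ) • q.2.2) := by
  have he0 : e ≠ 0 := by rintro rfl; simp at he
  have h2 : -e - e ≠ 0 := by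
    have e1 : -e - e = (-2 : ℝ) • e := by module
    rw [e1]; exact smul_ne_zero (by norm_num) he0
  set p₀ : V × V × V := (0, e, -e) with hp₀
  have px : HasFDerivAt (fun p : V × V × V => p.1) (ContinuousLinearMap.fst ℝ V (V × V)) p₀ :=
    hasFDerivAt_fst
  have py : HasFDerivAt (fun p : V × V × V => p.2.1)
      ((ContinuousLinearMap.fst ℝ V V).comp (ContinuousLinearMap.snd ℝ V (V × V))) p₀ :=
    ((ContinuousLinearMap.fst ℝ V V).comp (ContinuousLinearMap.snd ℝ V (V × V))).hasFDerivAt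
  have pz : HasFDerivAt (fun p : V × V × V => p.2.2)
      ((ContinuousLinearMap.snd ℝ V V).comp (ContinuousLinearMap.snd ℝ V (V × V))) p₀ :=
    ((ContinuousLinearMap.snd ℝ V V).comp (ContinuousLinearMap.snd ℝ V (V × V))).hasFDerivAt
  have f1 := HasFDerivAt.comp p₀ (hasFDerivAt_force (v := p₀.1 - p₀.2.1) (by simpa [hp₀] using he0))
    (px.sub py)
  have f2 := HasFDerivAt.comp p₀ (hasFDerivAt_force (v := p₀.1 - p₀.2.2) (by simpa [hp₀] using he0))
    (px.sub pz)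
  have f3 := HasFDerivAt.comp p₀ (hasFDerivAt_force (v := p₀.2.2 - p₀.1) (by simpa [hp₀] using he0))
    (pz.sub px)
  have f4 := HasFDerivAt.comp p₀ (hasFDerivAt_force (v := p₀.2.2 - p₀.2.1) h2) (pz.sub py)
  have g1 := (f1.add f2).add (px.const_smul (40 : ℝ))
  have g2 := ((f3.add f4).sub_const ((5 / 4 : ℝ) • e)).add ((pz.add_const e).const_smul (40 : ℝ))
  refine ⟨_, g1.prodMk g2, fun q => ?_⟩
  have a1 : p₀.1 - p₀.2.1 = -e := by simp [hp₀]
  have a2 : p₀.1 - p₀.2.2 = e := by simp [hp₀]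
  have a3 : p₀.2.2 - p₀.1 = -e := by simp [hp₀]
  have a4 : p₀.2.2 - p₀.2.1 = -e - e := by simp [hp₀]
  simp only [ContinuousLinearMap.prod_apply, add_apply,
    ContinuousLinearMap.comp_apply, sub_apply, smul_apply,
    ContinuousLinearMap.coe_fst', ContinuousLinearMap.coe_snd', a1, a2, a3, a4,
    forceD_unit he, forceD_neg_unit he, forceD_neg_two he]

/-- Local parametrisation of the zero set of `Φ` over a coordinate `π`. -/
lemma local_param [FiniteDimensional ℝ V] {Φ : V × V × V → V × V} {p₀ : V × V × V}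
    (hΦ : ContDiffAt ℝ ω Φ p₀) {D : (V × V × V) →L[ℝ] (V × V)} (hD : HasFDerivAt Φ D p₀)
    (h0 : Φ p₀ = 0) (π : (V × V × V) →L[ℝ] V) (hker : ∀ q, π q = 0 → D q = 0 → q = 0) :
    ∃ g : V → V × V × V, ContDiffAt ℝ ω g (π p₀) ∧ g (π p₀) = p₀ ∧
      (∀ᶠ v in 𝓝 (π p₀), Φ (g v) = 0 ∧ π (g v) = v) ∧
      (∀ᶠ p in 𝓝 p₀, Φ p = 0 → g (π p) = p) := by
  set Ψ : V × V × V → V × V × V := fun p => (π p, Φ p) with hΨ
  have hinj : Function.Injective (π.prod D : (V × V × V) →ₗ[ℝ] (V × V × V)) := by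
    rw [injective_iff_map_eq_zero]
    intro q hq
    have hq' : (π q, D q) = 0 := hq
    exact hker q (congrArg Prod.fst hq') (congrArg Prod.snd hq')
  set L : (V × V × V) ≃L[ℝ] (V × V × V) :=
    (LinearEquiv.ofInjectiveEndo _ hinj).toContinuousLinearEquiv with hL
  have hΨc : ContDiffAt ℝ ω Ψ p₀ := π.contDiff.contDiffAt.prodMk hΦ
  have hΨd : HasFDerivAt Ψ (L : (V × V × V) →L[ℝ] (V × V × V)) p₀ := by
    refine (π.hasFDerivAt.prodMk hD).congr_fderiv ?_
    exact ContinuousLinearMap.ext fun q => rfl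
  have hn : (ω : WithTop ℕ∞) ≠ 0 := by simp
  have hs := hΨc.hasStrictFDerivAt' hΨd hn
  have hΨ0 : Ψ p₀ = (π p₀, 0) := by simp [hΨ, h0]
  have hι : Filter.Tendsto (fun v : V => ((v, 0) : V × V × V)) (𝓝 (π p₀)) (𝓝 (Ψ p₀)) := by
    rw [hΨ0]
    exact (Continuous.prodMk_left (0 : V × V)).tendsto _
  refine ⟨fun v => hs.localInverse Ψ L p₀ (v, 0), ?_, ?_, ?_, ?_⟩
  · have h1 := hΨc.to_localInverse hΨd hn
    rw [hΨ0] at h1
    exact h1.comp (π p₀) (f := fun v : V => ((v, 0) : V × V × V)) (by fun_prop)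
  · simp only [← hΨ0]
    exact hs.localInverse_apply_image
  · filter_upwards [hι.eventually hs.eventually_right_inverse] with v hv
    exact ⟨congrArg Prod.snd hv, congrArg Prod.fst hv⟩
  · filter_upwards [hs.eventually_left_inverse] with p hp h
    rw [← hp]
    simp only [hΨ, h]
    congr 1
    simp only [hΨ, h] at hp
    rw [hp]

lemma ker_fst {e : V} (he : ‖e‖ = 1) (y z : V)
    (h1 : hess e (0 - y) + hess e (0 - z) + (40 : ℝ) • (0 : V) = 0)
    (h2 : hess e (z - 0) + (8 : ℝ)⁻¹ • hess e (z - y) + (40 : ℝ) • z = 0) : y = 0 ∧ z = 0 := by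
  have a1 : hess e (0 - y + (0 - z)) = 0 := by rw [hess_add]; simpa using h1
  have a2 := le_norm_hess he (0 - y + (0 - z))
  rw [a1, norm_zero, norm_le_zero_iff] at a2
  have a3 : y = -z := by linear_combination (norm := module) -a2
  subst a3
  have a4 : (40 : ℝ) • z = -((5 / 4 : ℝ) • hess e z) := by
    have : z - -z = (2 : ℝ) • z := by module
    rw [this, hess_smul, sub_zero] at h2
    linear_combination (norm := module) h2
  have a5 := congrArg norm a4
  rw [norm_neg, norm_smul, norm_smul] at a5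
  have a6 := norm_hess_le he z
  have a7 : ‖z‖ = 0 := by
    norm_num at a5
    nlinarith [norm_nonneg z]
  rw [norm_eq_zero] at a7
  simp [a7]

lemma ker_snd {e : V} (he : ‖e‖ = 1) (x z : V)
    (h1 : hess e (x - 0) + hess e (x - z) + (40 : ℝ) • x = 0)
    (h2 : hess e (z - x) + (8 : ℝ)⁻¹ • hess e (z - 0) + (40 : ℝ) • z = 0) : x = 0 ∧ z = 0 := by
  have a1 : (40 : ℝ) • x = hess e z - (2 : ℝ) • hess e x := by
    rw [sub_zero, hess_sub] at h1
    linear_combination (norm := module) h1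
  have a2 : (40 : ℝ) • z = hess e x - (9 / 8 : ℝ) • hess e z := by
    rw [sub_zero, hess_sub] at h2
    linear_combination (norm := module) h2
  have b1 : 40 * ‖x‖ ≤ ‖hess e z‖ + 2 * ‖hess e x‖ := by
    have := norm_sub_le (hess e z) ((2 : ℝ) • hess e x)
    rw [← a1, norm_smul, norm_smul] at this
    simpa using this
  have b2 : 40 * ‖z‖ ≤ ‖hess e x‖ + 9 / 8 * ‖hess e z‖ := by
    have := norm_sub_le (hess e x) ((9 / 8 : ℝ) • hess e z)
    rw [← a2, norm_smul, norm_smul] at this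
    norm_num at this
    exact this
  have c1 := norm_hess_le he x
  have c2 := norm_hess_le he z
  constructor
  · rw [← norm_eq_zero]; nlinarith [norm_nonneg x, norm_nonneg z]
  · rw [← norm_eq_zero]; nlinarith [norm_nonneg x, norm_nonneg z]

lemma ker_thd {e : V} (he : ‖e‖ = 1) (x y : V)
    (h1 : hess e (x - y) + hess e (x - 0) + (40 : ℝ) • x = 0)
    (h2 : hess e (0 - x) + (8 : ℝ)⁻¹ • hess e (0 - y) + (40 : ℝ) • (0 : V) = 0) :
    x = 0 ∧ y = 0 := by
  have a1 : hess e (0 - x + (8 : ℝ)⁻¹ • (0 - y)) = 0 := by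
    rw [hess_add, hess_smul]; simpa using h2
  have a2 := le_norm_hess he (0 - x + (8 : ℝ)⁻¹ • (0 - y))
  rw [a1, norm_zero, norm_le_zero_iff] at a2
  have a3 : y = (-8 : ℝ) • x := by linear_combination (norm := module) (-8 : ℝ) • a2
  subst a3
  have a4 : (40 : ℝ) • x = -((10 : ℝ) • hess e x) := by
    have : x - (-8 : ℝ) • x = (9 : ℝ) • x := by module
    rw [this, hess_smul, sub_zero] at h1
    linear_combination (norm := module) h1
  have a5 := congrArg norm a4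
  rw [norm_neg, norm_smul, norm_smul] at a5
  have a6 := norm_hess_le he x
  have a7 : ‖x‖ = 0 := by
    norm_num at a5
    nlinarith [norm_nonneg x]
  rw [norm_eq_zero] at a7
  simp [a7]

/-- The data of one sheet near a point `x`. -/
structure SheetAt (e : V) (ε : ℝ) (S R X Z : V → V) (x : V) : Prop where
  smoothS : ContDiffAt ℝ ω S x
  smoothR : ContDiffAt ℝ ω R x
  balance : bal e (x, S x, R x) = 0
  leftS : X (S x) = x
  leftR : Z (R x) = x
  smoothX : ContDiffAt ℝ ω X (S x)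
  smoothZ : ContDiffAt ℝ ω Z (R x)
  rightS : ∀ᶠ y in 𝓝 (S x), S (X y) = y
  rightR : ∀ᶠ z in 𝓝 (R x), R (Z z) = z
  nearS : ‖S x - e‖ ≤ ε
  nearR : ‖R x + e‖ ≤ ε

theorem exists_sheet [FiniteDimensional ℝ V] {e : V} (he : ‖e‖ = 1) {ε : ℝ} (hε : 0 < ε) :
    ∃ S R X Z : V → V, ∀ᶠ x in 𝓝 (0 : V), SheetAt e ε S R X Z x := by
  obtain ⟨D, hD, hDq⟩ := exists_hasFDerivAt_bal he
  have hc := contDiffAt_bal he
  have h0 := bal_base he
  obtain ⟨g1, c1, b1, r1, l1⟩ := local_param hc hD h0 (ContinuousLinearMap.fst ℝ V (V × V)) (by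
    rintro ⟨x, y, z⟩ hq hq'
    obtain rfl : x = 0 := hq
    rw [hDq, Prod.mk_eq_zero] at hq'
    obtain ⟨rfl, rfl⟩ := ker_fst he y z hq'.1 hq'.2
    rfl)
  obtain ⟨g2, c2, b2, r2, l2⟩ := local_param hc hD h0
    ((ContinuousLinearMap.fst ℝ V V).comp (ContinuousLinearMap.snd ℝ V (V × V))) (by
    rintro ⟨x, y, z⟩ hq hq'
    obtain rfl : y = 0 := hq
    rw [hDq, Prod.mk_eq_zero] at hq'
    obtain ⟨rfl, rfl⟩ := ker_snd he x z hq'.1 hq'.2
    rfl)
  obtain ⟨g3, c3, b3, r3, l3⟩ := local_param hc hD h0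
    ((ContinuousLinearMap.snd ℝ V V).comp (ContinuousLinearMap.snd ℝ V (V × V))) (by
    rintro ⟨x, y, z⟩ hq hq'
    obtain rfl : z = 0 := hq
    rw [hDq, Prod.mk_eq_zero] at hq'
    obtain ⟨rfl, rfl⟩ := ker_thd he x y hq'.1 hq'.2
    rfl)
  simp only [ContinuousLinearMap.coe_fst', ContinuousLinearMap.coe_snd',
    ContinuousLinearMap.comp_apply] at c1 b1 r1 l1 c2 b2 r2 l2 c3 b3 r3 l3
  have hn : (ω : WithTop ℕ∞) ≠ ∞ := by simp
  have t1 : Filter.Tendsto g1 (𝓝 0) (𝓝 (0, e, -e)) := by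
    have := c1.continuousAt.tendsto; rwa [b1] at this
  have t2 : Filter.Tendsto g2 (𝓝 e) (𝓝 (0, e, -e)) := by
    have := c2.continuousAt.tendsto; rwa [b2] at this
  have t3 : Filter.Tendsto g3 (𝓝 (-e)) (𝓝 (0, e, -e)) := by
    have := c3.continuousAt.tendsto; rwa [b3] at this
  have tS : Filter.Tendsto (fun x => (g1 x).2.1) (𝓝 0) (𝓝 e) :=
    ((continuous_fst.comp continuous_snd).tendsto _).comp t1
  have tR : Filter.Tendsto (fun x => (g1 x).2.2) (𝓝 0) (𝓝 (-e)) :=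
    ((continuous_snd.comp continuous_snd).tendsto _).comp t1
  have s2 : ∀ᶠ y in 𝓝 e, (g1 (g2 y).1).2.1 = y := by
    filter_upwards [r2, t2.eventually l1] with y hy hy'
    rw [hy' hy.1]; exact hy.2
  have s3 : ∀ᶠ z in 𝓝 (-e), (g1 (g3 z).1).2.2 = z := by
    filter_upwards [r3, t3.eventually l1] with z hz hz'
    rw [hz' hz.1]; exact hz.2
  have n2 : ∀ᶠ y in 𝓝 e, ‖y - e‖ ≤ ε := by
    filter_upwards [Metric.closedBall_mem_nhds e hε] with y hy
    rwa [mem_closedBall_iff_norm] at hy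
  have n3 : ∀ᶠ z in 𝓝 (-e), ‖z + e‖ ≤ ε := by
    filter_upwards [Metric.closedBall_mem_nhds (-e) hε] with y hy
    rwa [mem_closedBall_iff_norm, sub_neg_eq_add] at hy
  refine ⟨fun x => (g1 x).2.1, fun x => (g1 x).2.2, fun y => (g2 y).1, fun z => (g3 z).1, ?_⟩
  filter_upwards [c1.eventually hn, r1, t1.eventually l2, t1.eventually l3,
    tS.eventually (c2.eventually hn), tR.eventually (c3.eventually hn),
    tS.eventually s2.eventually_nhds, tR.eventually s3.eventually_nhds,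
    tS.eventually n2, tR.eventually n3] with x h1 h2 h3 h4 h5 h6 h7 h8 h9 h10
  refine ⟨h1.snd.fst, h1.snd.snd, ?_, ?_, ?_, h5.fst, h6.fst, h7, h8, h9, h10⟩
  · have : (x, (g1 x).2.1, (g1 x).2.2) = g1 x := Prod.ext h2.2.symm rfl
    rw [this]; exact h2.1
  · show (g2 (g1 x).2.1).1 = x
    rw [h3 h2.1]; exact h2.2
  · show (g3 (g1 x).2.2).1 = x
    rw [h4 h2.1]; exact h2.2

end Vale.Agent.P121
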