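import Vale.Agent.P121.Abstract
import Vale.Agent.P121.Sheet

open MeasureTheory
open scoped RealInnerProductSpace ENNReal

namespace Vale.Agent.P121

section real
variable {V : Type*} [NormedAddCommGroup V] [InnerProductSpace ℝ V]

/-- Real-valued Coulomb cost. -/
noncomputable def cR (x y z : V) : ℝ := ‖x - y‖⁻¹ + ‖x - z‖⁻¹ + ‖y - z‖⁻¹

/-- Potential on the central cluster. -/
noncomputable def uA (x : V) : ℝ := 2 - 20 * ‖x‖ ^ 2

/-- Potential on the cluster near `-e`. -/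
noncomputable def uC (e z : V) : ℝ := 1 / 4 + 5 / 4 * ⟪e, z + e⟫ - 20 * ‖z + e‖ ^ 2

omit [InnerProductSpace ℝ V] in
lemma cR_swap12 (x y z : V) : cR y x z = cR x y z := by
  simp only [cR, norm_sub_rev y x]; ring

omit [InnerProductSpace ℝ V] in
lemma cR_swap23 (x y z : V) : cR x z y = cR x y z := by
  simp only [cR, norm_sub_rev z y]; ring

lemma sheet_min {e x₀ y₀ z₀ x z : V} (hb : bal e (x₀, y₀, z₀) = 0)
    (d1 : 1 / 2 ≤ ‖x₀ - y₀‖) (d2 : 1 / 2 ≤ ‖x₀ - z₀‖) (d3 : 1 / 2 ≤ ‖z₀ - y₀‖)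
    (n1 : x - y₀ ≠ 0) (n2 : x - z ≠ 0) (n3 : z - y₀ ≠ 0) :
    cR x₀ y₀ z₀ - uA x₀ - uC e z₀ + 8 * (‖x - x₀‖ ^ 2 + ‖z - z₀‖ ^ 2) ≤
      cR x y₀ z - uA x - uC e z := by
  have pos : ∀ v : V, 1 / 2 ≤ ‖v‖ → v ≠ 0 := fun v hv h => by
    rw [h, norm_zero] at hv; norm_num at hv
  have i1 := inv_norm_lower (pos _ d1) n1
  have i2 := inv_norm_lower (pos _ d2) n2
  have i3 := inv_norm_lower (pos _ d3) n3
  have q : ∀ (v : V) (t : ℝ), 1 / 2 ≤ ‖v‖ → 0 ≤ t → t / (2 * ‖v‖ ^ 3) ≤ 4 * t := fun v t hv ht => by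
    have h3 : (1 / 2 : ℝ) ^ 3 ≤ ‖v‖ ^ 3 := pow_le_pow_left₀ (by norm_num) hv 3
    rw [div_le_iff₀ (by positivity)]
    nlinarith
  set δ := x - x₀ with hδ
  set η := z - z₀ with hη
  have e1 : x - y₀ - (x₀ - y₀) = δ := by rw [hδ]; abel
  have e2 : x - z - (x₀ - z₀) = δ - η := by rw [hδ, hη]; abel
  have e3 : z - y₀ - (z₀ - y₀) = η := by rw [hη]; abel
  rw [e1] at i1
  rw [e2] at i2
  rw [e3] at i3
  have j1 := q _ _ d1 (sq_nonneg ‖δ‖)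
  have j2 := q _ _ d2 (sq_nonneg ‖δ - η‖)
  have j3 := q _ _ d3 (sq_nonneg ‖η‖)
  have j4 : ‖δ - η‖ ^ 2 ≤ 2 * ‖δ‖ ^ 2 + 2 * ‖η‖ ^ 2 := by
    have := parallelogram_law_with_norm ℝ δ η
    nlinarith [sq_nonneg ‖δ + η‖]
  have b1 := congrArg (fun v => ⟪v.1, δ⟫) hb
  have b2 := congrArg (fun v => ⟪v.2, η⟫) hb
  have hf : force (z₀ - x₀) = -force (x₀ - z₀) := by rw [← force_neg, neg_sub]
  simp only [bal, hf, inner_add_left, inner_sub_left, inner_neg_left, real_inner_smul_left,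
    Prod.fst_zero, Prod.snd_zero, inner_zero_left] at b1 b2
  rw [inner_sub_right] at i2
  have k1 : ‖x‖ ^ 2 = ‖x₀‖ ^ 2 + 2 * ⟪x₀, δ⟫ + ‖δ‖ ^ 2 := by
    rw [← norm_add_sq_real, hδ]; congr 2; abel
  have k2 : ‖z + e‖ ^ 2 = ‖z₀ + e‖ ^ 2 + 2 * ⟪z₀ + e, η⟫ + ‖η‖ ^ 2 := by
    rw [← norm_add_sq_real, hη]; congr 2; abel
  have k3 : ⟪e, z + e⟫ = ⟪e, z₀ + e⟫ + ⟪e, η⟫ := by
    rw [← inner_add_right, hη]; congr 1; abel
  rw [inner_add_left] at k2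
  simp only [cR, uA, uC, k1, k2, k3, norm_sub_rev y₀ z, norm_sub_rev y₀ z₀]
  linarith

omit [InnerProductSpace ℝ V] in
lemma uA_bounds {x : V} (hx : ‖x‖ ≤ 1 / 1000) : 1999 / 1000 ≤ uA x ∧ uA x ≤ 2 := by
  have h1 : ‖x‖ ^ 2 ≤ (1 / 1000) ^ 2 := pow_le_pow_left₀ (norm_nonneg _) hx 2
  unfold uA
  constructor <;> nlinarith [sq_nonneg ‖x‖]

lemma uC_bounds {e z : V} (he : ‖e‖ = 1) (hz : ‖z + e‖ ≤ 1 / 1000) :
    248 / 1000 ≤ uC e z ∧ uC e z ≤ 252 / 1000 := by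
  have h1 : ‖z + e‖ ^ 2 ≤ (1 / 1000) ^ 2 := pow_le_pow_left₀ (norm_nonneg _) hz 2
  have h2 : |⟪e, z + e⟫| ≤ 1 / 1000 := by
    have := abs_real_inner_le_norm e (z + e)
    rw [he, one_mul] at this
    exact this.trans hz
  rw [abs_le] at h2
  unfold uC
  constructor <;> nlinarith [sq_nonneg ‖z + e‖]

lemma inv_bounds {t c : ℝ} (hc : 1 ≤ c) (h : |t - c| ≤ 2 / 1000) :
    c⁻¹ - 3 / 1000 ≤ t⁻¹ ∧ t⁻¹ ≤ c⁻¹ + 3 / 1000 := by
  rw [abs_le] at h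
  have ht : 0 < t := by linarith [h.1]
  have hc0 : 0 < c := by linarith
  have e : t⁻¹ - c⁻¹ = (c - t) / (t * c) := by field_simp
  have htc : 99 / 100 ≤ t * c := by nlinarith [h.1]
  have a1 : (c - t) / (t * c) ≤ 3 / 1000 := by
    rw [div_le_iff₀ (by positivity)]; nlinarith [h.1]
  have a2 : -(3 / 1000) ≤ (c - t) / (t * c) := by
    rw [le_div_iff₀ (by positivity)]; nlinarith [h.2]
  constructor <;> linarith

omit [InnerProductSpace ℝ V] in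
lemma norm_close {p q a b : V} (hp : ‖p - a‖ ≤ 1 / 1000) (hq : ‖q - b‖ ≤ 1 / 1000) :
    |‖p - q‖ - ‖a - b‖| ≤ 2 / 1000 := by
  have h1 := abs_norm_sub_norm_le (p - q) (a - b)
  have h2 : p - q - (a - b) = (p - a) - (q - b) := by abel
  have h3 := norm_sub_le (p - a) (q - b)
  rw [h2] at h1
  linarith

lemma uB_bounds {e x y z : V} (he : ‖e‖ = 1) (hx : ‖x‖ ≤ 1 / 1000) (hy : ‖y - e‖ ≤ 1 / 1000)
    (hz : ‖z + e‖ ≤ 1 / 1000) :
    0 ≤ cR x y z - uA x - uC e z ∧ cR x y z - uA x - uC e z ≤ 27 / 100 := by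
  have hx' : ‖x - 0‖ ≤ 1 / 1000 := by rwa [sub_zero]
  have hz' : ‖z - -e‖ ≤ 1 / 1000 := by rwa [sub_neg_eq_add]
  have c1 := norm_close hx' hy
  have c2 := norm_close hx' hz'
  have c3 := norm_close hy hz'
  have m1 : ‖(0 : V) - e‖ = 1 := by simpa using he
  have m2 : ‖(0 : V) - -e‖ = 1 := by simpa using he
  have m3 : ‖e - -e‖ = 2 := by
    have : e - -e = (2 : ℝ) • e := by module
    rw [this, norm_smul, he]; norm_num
  rw [m1] at c1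
  rw [m2] at c2
  rw [m3] at c3
  have d1 := inv_bounds (by norm_num) c1
  have d2 := inv_bounds (by norm_num) c2
  have d3 := inv_bounds (by norm_num) c3
  have a := uA_bounds hx
  have b := uC_bounds he hz
  unfold cR
  norm_num at d1 d2 d3
  constructor <;> linarith [d1.1, d1.2, d2.1, d2.2, d3.1, d3.2, a.1, a.2, b.1, b.2]

end real

lemma coulombCost_eq {x y z : E3} (h1 : x - y ≠ 0) (h2 : x - z ≠ 0) (h3 : y - z ≠ 0) :
    coulombCost (x, y, z) = ENNReal.ofReal (cR x y z) := by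
  simp only [coulombCost, cR, edist_dist, dist_eq_norm]
  rw [ENNReal.ofReal_add (by positivity) (by positivity),
    ENNReal.ofReal_add (by positivity) (by positivity),
    ENNReal.ofReal_inv_of_pos (norm_pos_iff.2 h1), ENNReal.ofReal_inv_of_pos (norm_pos_iff.2 h2),
    ENNReal.ofReal_inv_of_pos (norm_pos_iff.2 h3)]

lemma le_coulombCost {x y z : E3} {a b c : ℝ} (ha : 0 < a) (hb : 0 < b) (hc : 0 < c)
    (h1 : ‖x - y‖ ≤ a) (h2 : ‖x - z‖ ≤ b) (h3 : ‖y - z‖ ≤ c) :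
    ENNReal.ofReal (a⁻¹ + b⁻¹ + c⁻¹) ≤ coulombCost (x, y, z) := by
  simp only [coulombCost, edist_dist, dist_eq_norm]
  rw [ENNReal.ofReal_add (by positivity) (by positivity),
    ENNReal.ofReal_add (by positivity) (by positivity),
    ENNReal.ofReal_inv_of_pos ha, ENNReal.ofReal_inv_of_pos hb, ENNReal.ofReal_inv_of_pos hc]
  gcongr

/-- Upper bounds for the distance between points of two clusters. -/
def Dd (k l : Fin 5) : ℚ :=
  if k = l then 2 / 1000 else if k = 0 ∨ l = 0 then 1002 / 1000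
  else if (k.val + 1) / 2 = (l.val + 1) / 2 then 2002 / 1000 else 3 / 2

/-- Upper bounds for the potential on each cluster. -/
def Wd (k : Fin 5) : ℚ := if k = 0 then 2 else 27 / 100

lemma table : ∀ k l n : Fin 5, Good k l n ∨
    Wd k + Wd l + Wd n < (Dd k l)⁻¹ + (Dd k n)⁻¹ + (Dd l n)⁻¹ := by
  decide +kernel

lemma Dd_pos : ∀ k l : Fin 5, 0 < Dd k l := by decide +kernel

lemma good_cases : ∀ k l n : Fin 5, Good k l n →
    (k = 0 ∧ l = 1 ∧ n = 2) ∨ (k = 0 ∧ l = 2 ∧ n = 1) ∨ (k = 1 ∧ l = 0 ∧ n = 2) ∨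
    (k = 1 ∧ l = 2 ∧ n = 0) ∨ (k = 2 ∧ l = 0 ∧ n = 1) ∨ (k = 2 ∧ l = 1 ∧ n = 0) ∨
    (k = 0 ∧ l = 3 ∧ n = 4) ∨ (k = 0 ∧ l = 4 ∧ n = 3) ∨ (k = 3 ∧ l = 0 ∧ n = 4) ∨
    (k = 3 ∧ l = 4 ∧ n = 0) ∨ (k = 4 ∧ l = 0 ∧ n = 3) ∨ (k = 4 ∧ l = 3 ∧ n = 0) := by
  decide

lemma good_ne : ∀ k l n : Fin 5, Good k l n → k ≠ l ∧ k ≠ n ∧ l ≠ n := by decide

/-- First coordinates of the cluster centres. -/
def ca : Fin 5 → ℚ := ![0, 1, -1, 0, 0]

/-- Second coordinates of the cluster centres. -/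
def cb : Fin 5 → ℚ := ![0, 0, 0, 1, -1]

lemma table2 : ∀ k l : Fin 5, 0 ≤ Dd k l - 2 / 1000 ∧
    (ca k - ca l) ^ 2 + (cb k - cb l) ^ 2 ≤ (Dd k l - 2 / 1000) ^ 2 ∧
    (k ≠ l → 1 ≤ (ca k - ca l) ^ 2 + (cb k - cb l) ^ 2) := by
  decide +kernel

lemma center_dist {e₁ e₂ : E3} (h₁ : ‖e₁‖ = 1) (h₂ : ‖e₂‖ = 1) (h₁₂ : ⟪e₁, e₂⟫ = 0) (k l : Fin 5) :
    ‖![0, e₁, -e₁, e₂, -e₂] k - ![0, e₁, -e₁, e₂, -e₂] l‖ ≤ (Dd k l : ℝ) - 2 / 1000 ∧
      (k ≠ l → 1 ≤ ‖![0, e₁, -e₁, e₂, -e₂] k - ![0, e₁, -e₁, e₂, -e₂] l‖) := by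
  have gen : ∀ a b : ℝ, ‖a • e₁ + b • e₂‖ ^ 2 = a ^ 2 + b ^ 2 := fun a b => by
    rw [norm_add_sq_real, norm_smul, norm_smul, real_inner_smul_left, real_inner_smul_right, h₁, h₂,
      h₁₂]
    simp
  have hc : ∀ k : Fin 5, ![0, e₁, -e₁, e₂, -e₂] k = (ca k : ℝ) • e₁ + (cb k : ℝ) • e₂ := fun k => by
    fin_cases k <;> simp [ca, cb]
  have hd : ![0, e₁, -e₁, e₂, -e₂] k - ![0, e₁, -e₁, e₂, -e₂] l =
      ((ca k : ℝ) - ca l) • e₁ + ((cb k : ℝ) - cb l) • e₂ := by rw [hc, hc]; module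
  have hsq := gen ((ca k : ℝ) - ca l) ((cb k : ℝ) - cb l)
  rw [hd]
  obtain ⟨t1, t2, t3⟩ := table2 k l
  have t1' : (0 : ℝ) ≤ (Dd k l : ℝ) - 2 / 1000 := by
    have : ((0 : ℚ) : ℝ) ≤ ((Dd k l - 2 / 1000 : ℚ) : ℝ) := by exact_mod_cast t1
    push_cast at this; exact this
  have t2' : ((ca k : ℝ) - ca l) ^ 2 + ((cb k : ℝ) - cb l) ^ 2 ≤ ((Dd k l : ℝ) - 2 / 1000) ^ 2 := by
    have : (((ca k - ca l) ^ 2 + (cb k - cb l) ^ 2 : ℚ) : ℝ) ≤ (((Dd k l - 2 / 1000) ^ 2 : ℚ) : ℝ) := by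
      exact_mod_cast t2
    push_cast at this; exact this
  refine ⟨(abs_le_of_sq_le_sq' (by rw [hsq]; exact t2') t1').2, fun h => ?_⟩
  have t3' : (1 : ℝ) ≤ ((ca k : ℝ) - ca l) ^ 2 + ((cb k : ℝ) - cb l) ^ 2 := by exact_mod_cast t3 h
  exact (abs_le_of_sq_le_sq' (by rw [hsq]; simpa using t3') (norm_nonneg _)).2

theorem clusters_no_monge {Λ : Type*} [MeasurableSpace Λ] (m : Measure Λ) [IsProbabilityMeasure m]
    {e₁ e₂ : E3} (h₁ : ‖e₁‖ = 1) (h₂ : ‖e₂‖ = 1) (h₁₂ : ⟪e₁, e₂⟫ = 0)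
    (P : Fin 5 → Λ → E3) (hP : ∀ k, MeasurableEmbedding (P k))
    (near : ∀ k a, ‖P k a - ![0, e₁, -e₁, e₂, -e₂] k‖ ≤ 1 / 1000)
    (b₁ : ∀ a, bal e₁ (P 0 a, P 1 a, P 2 a) = 0) (b₂ : ∀ a, bal e₂ (P 0 a, P 3 a, P 4 a) = 0) :
    kantorovichValue (mu m P) < ∞ ∧ ¬ ∃ T₂ T₃, IsOptimalMongePlan (mu m P) T₂ T₃ := by
  have hup : ∀ k l a b, ‖P k a - P l b‖ ≤ (Dd k l : ℝ) := fun k l a b => by
    have c := norm_close (near k a) (near l b)
    have d := (center_dist h₁ h₂ h₁₂ k l).1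
    rw [abs_le] at c
    linarith [c.2]
  have hlow : ∀ k l a b, k ≠ l → 1 / 2 ≤ ‖P k a - P l b‖ := fun k l a b h => by
    have c := norm_close (near k a) (near l b)
    have d := (center_dist h₁ h₂ h₁₂ k l).2 h
    rw [abs_le] at c
    linarith [c.1]
  have hne : ∀ k l a b, k ≠ l → P k a - P l b ≠ 0 := fun k l a b h h' => by
    have := hlow k l a b h
    rw [h', norm_zero] at this
    norm_num at this
  have n0 : ∀ a, ‖P 0 a‖ ≤ 1 / 1000 := fun a => by simpa using near 0 a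
  have n1 : ∀ a, ‖P 1 a - e₁‖ ≤ 1 / 1000 := fun a => by simpa using near 1 a
  have n2 : ∀ a, ‖P 2 a + e₁‖ ≤ 1 / 1000 := fun a => by simpa using near 2 a
  have n3 : ∀ a, ‖P 3 a - e₂‖ ≤ 1 / 1000 := fun a => by simpa using near 3 a
  have n4 : ∀ a, ‖P 4 a + e₂‖ ≤ 1 / 1000 := fun a => by simpa using near 4 a
  set u : Fin 5 → Λ → ℝ := ![fun a => uA (P 0 a),
    fun a => cR (P 0 a) (P 1 a) (P 2 a) - uA (P 0 a) - uC e₁ (P 2 a), fun a => uC e₁ (P 2 a),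
    fun a => cR (P 0 a) (P 3 a) (P 4 a) - uA (P 0 a) - uC e₂ (P 4 a), fun a => uC e₂ (P 4 a)]
    with hu
  have u0 : ∀ a, u 0 a = uA (P 0 a) := fun a => rfl
  have u1 : ∀ a, u 1 a = cR (P 0 a) (P 1 a) (P 2 a) - uA (P 0 a) - uC e₁ (P 2 a) := fun a => rfl
  have u2 : ∀ a, u 2 a = uC e₁ (P 2 a) := fun a => rfl
  have u3 : ∀ a, u 3 a = cR (P 0 a) (P 3 a) (P 4 a) - uA (P 0 a) - uC e₂ (P 4 a) := fun a => rfl
  have u4 : ∀ a, u 4 a = uC e₂ (P 4 a) := fun a => rfl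
  have hPm : ∀ k, Measurable (P k) := fun k => (hP k).measurable
  have hum : ∀ k, Measurable (u k) := fun k => by
    have m0 := hPm 0
    have m1 := hPm 1
    have m2 := hPm 2
    have m3 := hPm 3
    have m4 := hPm 4
    fin_cases k
    · show Measurable fun a => uA (P 0 a)
      unfold uA; fun_prop
    · show Measurable fun a => cR (P 0 a) (P 1 a) (P 2 a) - uA (P 0 a) - uC e₁ (P 2 a)
      unfold cR uA uC; fun_prop
    · show Measurable fun a => uC e₁ (P 2 a)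
      unfold uC; fun_prop
    · show Measurable fun a => cR (P 0 a) (P 3 a) (P 4 a) - uA (P 0 a) - uC e₂ (P 4 a)
      unfold cR uA uC; fun_prop
    · show Measurable fun a => uC e₂ (P 4 a)
      unfold uC; fun_prop
  have hub : ∀ k a, 0 ≤ u k a ∧ u k a ≤ (Wd k : ℝ) := fun k a => by
    have a0 := uA_bounds (n0 a)
    have a1 := uB_bounds h₁ (n0 a) (n1 a) (n2 a)
    have a2 := uC_bounds h₁ (n2 a)
    have a3 := uB_bounds h₂ (n0 a) (n3 a) (n4 a)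
    have a4 := uC_bounds h₂ (n4 a)
    fin_cases k
    · show 0 ≤ u 0 a ∧ u 0 a ≤ (Wd 0 : ℝ)
      rw [u0]; norm_num [Wd]; constructor <;> linarith [a0.1, a0.2]
    · show 0 ≤ u 1 a ∧ u 1 a ≤ (Wd 1 : ℝ)
      rw [u1, show Wd 1 = 27 / 100 from rfl]; push_cast; exact a1
    · show 0 ≤ u 2 a ∧ u 2 a ≤ (Wd 2 : ℝ)
      rw [u2, show Wd 2 = 27 / 100 from rfl]; push_cast; constructor <;> linarith [a2.1, a2.2]
    · show 0 ≤ u 3 a ∧ u 3 a ≤ (Wd 3 : ℝ)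
      rw [u3, show Wd 3 = 27 / 100 from rfl]; push_cast; exact a3
    · show 0 ≤ u 4 a ∧ u 4 a ≤ (Wd 4 : ℝ)
      rw [u4, show Wd 4 = 27 / 100 from rfl]; push_cast; constructor <;> linarith [a4.1, a4.2]
  -- the contact dichotomy on good triples
  set F : Fin 5 → Fin 5 → Fin 5 → Prop := fun k l n => ∀ a b c,
    (a = b ∧ a = c ∧ u k a + u l b + u n c = cR (P k a) (P l b) (P n c)) ∨
      (¬ (a = b ∧ a = c) ∧ u k a + u l b + u n c < cR (P k a) (P l b) (P n c)) with hF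
  have s12 : ∀ k l n, F k l n → F l k n := fun k l n h a b c => by
    rcases h b a c with ⟨rfl, rfl, h⟩ | ⟨h, h'⟩
    · left; exact ⟨rfl, rfl, by rw [cR_swap12, ← h]; ring⟩
    · right
      refine ⟨?_, by rw [cR_swap12]; linarith⟩
      rintro ⟨rfl, rfl⟩; exact h ⟨rfl, rfl⟩
  have s23 : ∀ k l n, F k l n → F k n l := fun k l n h a b c => by
    rcases h a c b with ⟨rfl, rfl, h⟩ | ⟨h, h'⟩
    · left; exact ⟨rfl, rfl, by rw [cR_swap23, ← h]; ring⟩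
    · right
      refine ⟨?_, by rw [cR_swap23]; linarith⟩
      rintro ⟨rfl, rfl⟩; exact h ⟨rfl, rfl⟩
  have base : ∀ (e : E3) (l n : Fin 5), 0 ≠ l → 0 ≠ n → n ≠ l →
      (∀ a, bal e (P 0 a, P l a, P n a) = 0) →
      (∀ a, u l a = cR (P 0 a) (P l a) (P n a) - uA (P 0 a) - uC e (P n a)) →
      (∀ a, u n a = uC e (P n a)) → F 0 l n := fun e l n hl hn hnl hb ul un a b c => by
    by_cases h : a = b ∧ a = c
    · obtain ⟨rfl, rfl⟩ := h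
      left
      exact ⟨rfl, rfl, by rw [u0, ul, un]; ring⟩
    · right
      refine ⟨h, ?_⟩
      have sm := sheet_min (x := P 0 a) (z := P n c) (hb b) (hlow _ _ _ _ hl) (hlow _ _ _ _ hn)
        (hlow _ _ _ _ hnl) (hne _ _ _ _ hl) (hne _ _ _ _ hn) (hne _ _ _ _ hnl)
      have hpos : 0 < ‖P 0 a - P 0 b‖ ^ 2 + ‖P n c - P n b‖ ^ 2 := by
        by_cases hab : a = b
        · have hcb : c ≠ b := fun hcb => h ⟨hab, hab.trans hcb.symm⟩
          have : P n c - P n b ≠ 0 := sub_ne_zero.2 fun h' => hcb ((hP n).injective h')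
          positivity
        · have : P 0 a - P 0 b ≠ 0 := sub_ne_zero.2 fun h' => hab ((hP 0).injective h')
          positivity
      rw [u0, ul, un]
      linarith
  have F1 : F 0 1 2 := base e₁ 1 2 (by decide) (by decide) (by decide) b₁ u1 u2
  have F2 : F 0 3 4 := base e₂ 3 4 (by decide) (by decide) (by decide) b₂ u3 u4
  have hFg : ∀ k l n, Good k l n → F k l n := fun k l n h => by
    rcases good_cases k l n h with ⟨rfl, rfl, rfl⟩ | ⟨rfl, rfl, rfl⟩ | ⟨rfl, rfl, rfl⟩ |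
      ⟨rfl, rfl, rfl⟩ | ⟨rfl, rfl, rfl⟩ | ⟨rfl, rfl, rfl⟩ | ⟨rfl, rfl, rfl⟩ | ⟨rfl, rfl, rfl⟩ |
      ⟨rfl, rfl, rfl⟩ | ⟨rfl, rfl, rfl⟩ | ⟨rfl, rfl, rfl⟩ | ⟨rfl, rfl, rfl⟩
    · exact F1
    · exact s23 _ _ _ F1
    · exact s12 _ _ _ F1
    · exact s23 _ _ _ (s12 _ _ _ F1)
    · exact s12 _ _ _ (s23 _ _ _ F1)
    · exact s12 _ _ _ (s23 _ _ _ (s12 _ _ _ F1))
    · exact F2
    · exact s23 _ _ _ F2
    · exact s12 _ _ _ F2
    · exact s23 _ _ _ (s12 _ _ _ F2)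
    · exact s12 _ _ _ (s23 _ _ _ F2)
    · exact s12 _ _ _ (s23 _ _ _ (s12 _ _ _ F2))
  have hsum : ∀ k l n a b c, ENNReal.ofReal (u k a) + ENNReal.ofReal (u l b) +
      ENNReal.ofReal (u n c) = ENNReal.ofReal (u k a + u l b + u n c) := fun k l n a b c => by
    rw [ENNReal.ofReal_add (add_nonneg (hub k a).1 (hub l b).1) (hub n c).1,
      ENNReal.ofReal_add (hub k a).1 (hub l b).1]
  have hnn : ∀ k l n a b c, 0 ≤ u k a + u l b + u n c := fun k l n a b c =>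
    add_nonneg (add_nonneg (hub k a).1 (hub l b).1) (hub n c).1
  refine abstract_no_monge m P hP ?_ (fun k a => ENNReal.ofReal (u k a))
    (fun k => (hum k).ennreal_ofReal) ?_ ?_ ?_
  · intro k l a b h
    by_contra hkl
    exact hne k l a b hkl (sub_eq_zero.2 h)
  · intro k a
    have h1 : (Wd k : ℝ) ≤ 3 := by
      have : ∀ k, Wd k ≤ 3 := by decide +kernel
      exact_mod_cast this k
    have := ENNReal.ofReal_le_ofReal ((hub k a).2.trans h1)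
    simpa using this
  · intro k l n a h
    obtain ⟨g1, g2, g3⟩ := good_ne k l n h
    rw [hsum, coulombCost_eq (hne _ _ _ _ g1) (hne _ _ _ _ g2) (hne _ _ _ _ g3)]
    rcases hFg k l n h a a a with h | h
    · rw [h.2.2]
    · exact absurd ⟨rfl, rfl⟩ h.1
  · intro k l n a b c
    rw [hsum]
    rcases table k l n with h | h
    · obtain ⟨g1, g2, g3⟩ := good_ne k l n h
      rcases hFg k l n h a b c with h' | h'
      · exact Or.inl ⟨h'.1, h'.2.1, h⟩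
      · right
        rw [coulombCost_eq (hne _ _ _ _ g1) (hne _ _ _ _ g2) (hne _ _ _ _ g3)]
        exact (ENNReal.ofReal_lt_ofReal_iff_of_nonneg (hnn _ _ _ _ _ _)).2 h'.2
    · right
      have p : ∀ k l, (0 : ℝ) < Dd k l := fun k l => by exact_mod_cast Dd_pos k l
      refine lt_of_lt_of_le ?_ (le_coulombCost (p k l) (p k n) (p l n) (hup _ _ _ _) (hup _ _ _ _)
        (hup _ _ _ _))
      refine (ENNReal.ofReal_lt_ofReal_iff_of_nonneg (hnn _ _ _ _ _ _)).2 ?_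
      have h' : ((Wd k + Wd l + Wd n : ℚ) : ℝ) < (((Dd k l)⁻¹ + (Dd k n)⁻¹ + (Dd l n)⁻¹ : ℚ) : ℝ) :=
        by exact_mod_cast h
      push_cast at h'
      linarith [(hub k a).2, (hub l b).2, (hub n c).2]

end Vale.Agent.P121
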