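import Mathlib

open MeasureTheory
open scoped ENNReal

namespace Vale.Agent.P121

/-- Euclidean three-space. -/
abbrev E3 : Type := EuclideanSpace ℝ (Fin 3)

/-- The three-particle Coulomb cost, with values in `[0, ∞]`; it is `∞` when two points coincide
(`edist` is the Euclidean distance and `0⁻¹ = ∞` in `ℝ≥0∞`). -/
noncomputable def coulombCost (p : E3 × E3 × E3) : ℝ≥0∞ :=
  (edist p.1 p.2.1)⁻¹ + (edist p.1 p.2.2)⁻¹ + (edist p.2.1 p.2.2)⁻¹

/-- `π ∈ Π(μ, μ, μ)`: a Borel probability measure whose three coordinate marginals equal `μ`. -/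
def IsCoupling (μ : Measure E3) (π : Measure (E3 × E3 × E3)) : Prop :=
  IsProbabilityMeasure π ∧ π.map (fun p => p.1) = μ ∧ π.map (fun p => p.2.1) = μ ∧
    π.map (fun p => p.2.2) = μ

/-- The Kantorovich value `𝓔(μ) = inf { ∫ c dπ : π ∈ Π(μ, μ, μ) }`. -/
noncomputable def kantorovichValue (μ : Measure E3) : ℝ≥0∞ :=
  ⨅ (π : Measure (E3 × E3 × E3)) (_ : IsCoupling μ π), ∫⁻ p, coulombCost p ∂π

/-- `(Id, T₂, T₃)_# μ` is an optimal Monge plan: `T₂, T₃` are Borel, preserve `μ`, and the cost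
`∫ c(x, T₂ x, T₃ x) dμ(x)` equals the Kantorovich value. -/
def IsOptimalMongePlan (μ : Measure E3) (T₂ T₃ : E3 → E3) : Prop :=
  Measurable T₂ ∧ Measurable T₃ ∧ μ.map T₂ = μ ∧ μ.map T₃ = μ ∧
    ∫⁻ x, coulombCost (x, T₂ x, T₃ x) ∂μ = kantorovichValue μ

end Vale.Agent.P121
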