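import Vale.Agent.P121.Clusters

open MeasureTheory
open scoped RealInnerProductSpace ENNReal Topology ContDiff

namespace Vale.Agent.P121

lemma contDiff_det : ContDiff ℝ ∞ (fun A : E3 →L[ℝ] E3 => A.det) := by
  let b := (EuclideanSpace.basisFun (Fin 3) ℝ).toBasis
  have : (fun A : E3 →L[ℝ] E3 => A.det) = fun A : E3 →L[ℝ] E3 =>
      ∑ σ : Equiv.Perm (Fin 3), ((Equiv.Perm.sign σ : ℤ) : ℝ) * ∏ i, (A (b i)) (σ i) := by
    ext A
    rw [ContinuousLinearMap.det, ← LinearMap.det_toMatrix b, Matrix.det_apply']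
    simp [LinearMap.toMatrix_apply, b]
  rw [this]
  fun_prop

/-- Pushing a smooth compactly supported density forward by a local analytic diffeomorphism. -/
lemma push_density {A : Set E3} (hA : IsOpen A) {ψ : E3 → ℝ} (hψ : ContDiff ℝ ∞ ψ)
    (hψc : HasCompactSupport ψ) (hψA : tsupport ψ ⊆ A) (hψ0 : ∀ x, 0 ≤ ψ x) {S X : E3 → E3}
    (hS : ∀ x ∈ A, ContDiffAt ℝ ω S x) (hXS : ∀ x ∈ A, X (S x) = x)
    (hX : ∀ x ∈ A, ContDiffAt ℝ ω X (S x)) (hSX : ∀ x ∈ A, ∀ᶠ y in 𝓝 (S x), S (X y) = y) :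
    MeasurableEmbedding (fun a : A => S a) ∧
    ∃ ρ : E3 → ℝ, ContDiff ℝ ∞ ρ ∧ HasCompactSupport ρ ∧ (∀ y, 0 ≤ ρ y) ∧
      (Measure.comap ((↑) : A → E3) (volume.withDensity fun x => ENNReal.ofReal (ψ x))).map
        (fun a : A => S a) = volume.withDensity fun y => ENNReal.ofReal (ρ y) := by
  classical
  have hSc : ContinuousOn S A := fun x hx => (hS x hx).continuousAt.continuousWithinAt
  have hSi : Set.InjOn S A := fun x hx y hy h => by rw [← hXS x hx, h, hXS y hy]
  have hemb : MeasurableEmbedding (fun a : A => S a) :=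
    hSc.measurableEmbedding hA.measurableSet hSi
  have hB : IsOpen (S '' A) := by
    rw [isOpen_iff_mem_nhds]
    rintro _ ⟨x, hx, rfl⟩
    have h1 : ∀ᶠ y in 𝓝 (S x), X y ∈ A := by
      have := (hX x hx).continuousAt.tendsto
      rw [hXS x hx] at this
      exact this.eventually (hA.mem_nhds hx)
    filter_upwards [h1, hSX x hx] with y hy hy'
    exact ⟨X y, hy, hy'⟩
  have hdet : ∀ x ∈ A, (fderiv ℝ X (S x)).det ≠ 0 := fun x hx => by
    have d1 : HasFDerivAt X (fderiv ℝ X (S x)) (S x) :=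
      ((hX x hx).differentiableAt (by simp)).hasFDerivAt
    have d2 : HasFDerivAt S (fderiv ℝ S x) x := ((hS x hx).differentiableAt (by simp)).hasFDerivAt
    have d3 := d1.comp x d2
    have d4 : HasFDerivAt (X ∘ S) (ContinuousLinearMap.id ℝ E3) x := by
      refine (hasFDerivAt_id x).congr_of_eventuallyEq ?_
      filter_upwards [hA.mem_nhds hx] with y hy using hXS y hy
    have d5 := congrArg (fun L : E3 →L[ℝ] E3 => LinearMap.det (L : E3 →ₗ[ℝ] E3)) (d3.unique d4)
    simp only [ContinuousLinearMap.coe_id, LinearMap.det_id] at d5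
    have d6 := (LinearMap.det_comp (fderiv ℝ X (S x) : E3 →ₗ[ℝ] E3)
      (fderiv ℝ S x : E3 →ₗ[ℝ] E3)).symm.trans d5
    exact left_ne_zero_of_mul_eq_one d6
  set ρ : E3 → ℝ := fun y => if y ∈ S '' A then |(fderiv ℝ X y).det| * ψ (X y) else 0 with hρ
  have hK : IsCompact (S '' tsupport ψ) := hψc.isCompact.image_of_continuousOn (hSc.mono hψA)
  have hρK : ∀ y, y ∉ S '' tsupport ψ → ρ y = 0 := fun y hy => by
    simp only [hρ]
    split_ifs with h
    · obtain ⟨x, hx, rfl⟩ := h
      rw [hXS x hx, image_eq_zero_of_notMem_tsupport (fun h' => hy ⟨x, h', rfl⟩), mul_zero]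
    · rfl
  have hρs : ContDiff ℝ ∞ ρ := by
    rw [contDiff_iff_contDiffAt]
    intro y
    by_cases hy : y ∈ S '' A
    · have e : ρ =ᶠ[𝓝 y] fun y => |(fderiv ℝ X y).det| * ψ (X y) := by
        filter_upwards [hB.mem_nhds hy] with y' hy'
        simp only [hρ, if_pos hy']
      refine ContDiffAt.congr_of_eventuallyEq ?_ e
      obtain ⟨x, hx, rfl⟩ := hy
      have c1 : ContDiffAt ℝ ∞ (fderiv ℝ X) (S x) := (hX x hx).fderiv_right le_top
      have c2 : ContDiffAt ℝ ∞ (fun y => (fderiv ℝ X y).det) (S x) :=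
        contDiff_det.contDiffAt.comp (S x) c1
      exact (c2.abs (hdet x hx)).mul (hψ.contDiffAt.comp (S x) ((hX x hx).of_le le_top))
    · have hy' : y ∉ S '' tsupport ψ := fun h => hy (Set.image_mono hψA h)
      have e : ρ =ᶠ[𝓝 y] fun _ => 0 := by
        filter_upwards [hK.isClosed.isOpen_compl.mem_nhds hy'] with y' h using hρK y' h
      exact contDiffAt_const.congr_of_eventuallyEq e
  refine ⟨hemb, ρ, hρs, HasCompactSupport.intro hK hρK, fun y => ?_, ?_⟩
  · simp only [hρ]
    split_ifs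
    · exact mul_nonneg (abs_nonneg _) (hψ0 _)
    · exact le_rfl
  · ext N hN
    have hNB : MeasurableSet (N ∩ S '' A) := hN.inter hB.measurableSet
    have hpre : MeasurableSet ((fun a : A => S a) ⁻¹' N) := hemb.measurable hN
    have himg : ((↑) : A → E3) '' ((fun a : A => S a) ⁻¹' N) = X '' (N ∩ S '' A) := by
      ext x
      constructor
      · rintro ⟨a, ha, rfl⟩
        exact ⟨S a, ⟨ha, a, a.2, rfl⟩, hXS a a.2⟩
      · rintro ⟨_, ⟨hy, x, hx, rfl⟩, rfl⟩
        rw [hXS x hx]
        exact ⟨⟨x, hx⟩, hy, rfl⟩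
    have hder : ∀ y ∈ N ∩ S '' A, HasFDerivWithinAt X (fderiv ℝ X y) (N ∩ S '' A) y := by
      rintro _ ⟨-, x, hx, rfl⟩
      exact ((hX x hx).differentiableAt (by simp)).hasFDerivAt.hasFDerivWithinAt
    have hinj : Set.InjOn X (N ∩ S '' A) := by
      rintro _ ⟨-, x, hx, rfl⟩ _ ⟨-, x', hx', rfl⟩ h
      rw [hXS x hx, hXS x' hx'] at h
      rw [h]
    have hme : MeasurableSet (((↑) : A → E3) '' ((fun a : A => S a) ⁻¹' N)) :=
      (MeasurableEmbedding.subtype_coe hA.measurableSet).measurableSet_image.2 hpre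
    rw [Measure.map_apply hemb.measurable hN,
      (MeasurableEmbedding.subtype_coe hA.measurableSet).comap_apply, withDensity_apply _ hme,
      himg, lintegral_image_eq_lintegral_abs_det_fderiv_mul volume hNB hder hinj,
      withDensity_apply _ hN, ← lintegral_indicator hNB, ← lintegral_indicator hN]
    refine lintegral_congr fun y => ?_
    by_cases h1 : y ∈ N
    · by_cases h2 : y ∈ S '' A
      · rw [Set.indicator_of_mem (Set.mem_inter h1 h2), Set.indicator_of_mem h1]
        simp only [hρ, if_pos h2]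
        rw [ENNReal.ofReal_mul (abs_nonneg _)]
      · rw [Set.indicator_of_notMem (fun h => h2 h.2), Set.indicator_of_mem h1]
        simp only [hρ, if_neg h2, ENNReal.ofReal_zero]
    · rw [Set.indicator_of_notMem (fun h => h1 h.1), Set.indicator_of_notMem h1]

theorem exists_smooth_counterexample :
    ∃ ρ : E3 → ℝ, ContDiff ℝ ∞ ρ ∧ HasCompactSupport ρ ∧ (∀ x, 0 ≤ ρ x) ∧
      IsProbabilityMeasure (volume.withDensity fun x => ENNReal.ofReal (ρ x)) ∧
      kantorovichValue (volume.withDensity fun x => ENNReal.ofReal (ρ x)) < ⊤ ∧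
      ¬ ∃ T₂ T₃, IsOptimalMongePlan (volume.withDensity fun x => ENNReal.ofReal (ρ x)) T₂ T₃ := by
  set e₁ : E3 := EuclideanSpace.single 0 1 with he₁
  set e₂ : E3 := EuclideanSpace.single 1 1 with he₂
  have h₁ : ‖e₁‖ = 1 := by simp [he₁]
  have h₂ : ‖e₂‖ = 1 := by simp [he₂]
  have h₁₂ : ⟪e₁, e₂⟫ = 0 := by simp [he₁, he₂, EuclideanSpace.inner_single_left]
  obtain ⟨S₁, R₁, X₁, Z₁, s₁⟩ := exists_sheet h₁ (ε := 1 / 1000) (by norm_num)
  obtain ⟨S₂, R₂, X₂, Z₂, s₂⟩ := exists_sheet h₂ (ε := 1 / 1000) (by norm_num)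
  have s₀ : ∀ᶠ x in 𝓝 (0 : E3), ‖x‖ ≤ 1 / 1000 := by
    filter_upwards [Metric.closedBall_mem_nhds (0 : E3) (show (0 : ℝ) < 1 / 1000 by norm_num)]
      with x hx
    rwa [mem_closedBall_zero_iff] at hx
  obtain ⟨r, hr, hball⟩ := Metric.eventually_nhds_iff_ball.1 (s₀.and (s₁.and s₂))
  set A : Set E3 := Metric.ball 0 r with hAdef
  have hA : IsOpen A := Metric.isOpen_ball
  let bump : ContDiffBump (0 : E3) := ⟨r / 4, r / 2, by linarith, by linarith⟩
  set ψ : E3 → ℝ := bump.normed volume with hψdef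
  have hψ : ContDiff ℝ ∞ ψ := bump.contDiff_normed
  have hψc : HasCompactSupport ψ := bump.hasCompactSupport_normed
  have hψA : tsupport ψ ⊆ A := by
    rw [hψdef, bump.tsupport_normed_eq]
    exact Metric.closedBall_subset_ball (by show r / 2 < r; linarith)
  have hψ0 : ∀ x, 0 ≤ ψ x := bump.nonneg_normed
  set m : Measure A := Measure.comap ((↑) : A → E3)
    (volume.withDensity fun x => ENNReal.ofReal (ψ x)) with hm
  have hprob : IsProbabilityMeasure m := by
    constructor
    rw [hm, (MeasurableEmbedding.subtype_coe hA.measurableSet).comap_apply, Set.image_univ,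
      Subtype.range_coe, withDensity_apply _ hA.measurableSet,
      ← lintegral_indicator hA.measurableSet]
    have e : (A.indicator fun x => ENNReal.ofReal (ψ x)) = fun x => ENNReal.ofReal (ψ x) := by
      ext x
      by_cases hx : x ∈ A
      · rw [Set.indicator_of_mem hx]
      · rw [Set.indicator_of_notMem hx, image_eq_zero_of_notMem_tsupport (fun h => hx (hψA h)),
          ENNReal.ofReal_zero]
    rw [e, ← ofReal_integral_eq_lintegral_ofReal bump.integrable_normed
      (Filter.Eventually.of_forall hψ0), bump.integral_normed, ENNReal.ofReal_one]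
  obtain ⟨m0, ρ0, c0, k0, p0, q0⟩ := push_density hA hψ hψc hψA hψ0 (S := id) (X := id)
    (fun _ _ => contDiffAt_id) (fun _ _ => rfl) (fun _ _ => contDiffAt_id)
    (fun _ _ => Filter.Eventually.of_forall fun _ => rfl)
  obtain ⟨m1, ρ1, c1, k1, p1, q1⟩ := push_density hA hψ hψc hψA hψ0 (S := S₁) (X := X₁)
    (fun x hx => (hball x hx).2.1.smoothS) (fun x hx => (hball x hx).2.1.leftS)
    (fun x hx => (hball x hx).2.1.smoothX) (fun x hx => (hball x hx).2.1.rightS)
  obtain ⟨m2, ρ2, c2, k2, p2, q2⟩ := push_density hA hψ hψc hψA hψ0 (S := R₁) (X := Z₁)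
    (fun x hx => (hball x hx).2.1.smoothR) (fun x hx => (hball x hx).2.1.leftR)
    (fun x hx => (hball x hx).2.1.smoothZ) (fun x hx => (hball x hx).2.1.rightR)
  obtain ⟨m3, ρ3, c3, k3, p3, q3⟩ := push_density hA hψ hψc hψA hψ0 (S := S₂) (X := X₂)
    (fun x hx => (hball x hx).2.2.smoothS) (fun x hx => (hball x hx).2.2.leftS)
    (fun x hx => (hball x hx).2.2.smoothX) (fun x hx => (hball x hx).2.2.rightS)
  obtain ⟨m4, ρ4, c4, k4, p4, q4⟩ := push_density hA hψ hψc hψA hψ0 (S := R₂) (X := Z₂)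
    (fun x hx => (hball x hx).2.2.smoothR) (fun x hx => (hball x hx).2.2.leftR)
    (fun x hx => (hball x hx).2.2.smoothZ) (fun x hx => (hball x hx).2.2.rightR)
  set P : Fin 5 → A → E3 := ![fun a => id (a : E3), fun a => S₁ a, fun a => R₁ a, fun a => S₂ a,
    fun a => R₂ a] with hPdef
  have hP : ∀ k, MeasurableEmbedding (P k) := fun k => by
    fin_cases k
    exacts [m0, m1, m2, m3, m4]
  have near : ∀ k a, ‖P k a - ![0, e₁, -e₁, e₂, -e₂] k‖ ≤ 1 / 1000 := fun k a => by
    have h := hball a a.2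
    fin_cases k
    · show ‖(a : E3) - 0‖ ≤ 1 / 1000
      rw [sub_zero]; exact h.1
    · exact h.2.1.nearS
    · show ‖R₁ a - -e₁‖ ≤ 1 / 1000
      rw [sub_neg_eq_add]; exact h.2.1.nearR
    · exact h.2.2.nearS
    · show ‖R₂ a - -e₂‖ ≤ 1 / 1000
      rw [sub_neg_eq_add]; exact h.2.2.nearR
  have main := clusters_no_monge m h₁ h₂ h₁₂ P hP near (fun a => (hball a a.2).2.1.balance)
    (fun a => (hball a a.2).2.2.balance)
  have hpr := isProbabilityMeasure_mu m P (fun k => (hP k).measurable)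
  set ρ : E3 → ℝ := fun x => 6⁻¹ * (ρ0 x + ρ1 x + ρ2 x + ρ0 x + ρ3 x + ρ4 x) with hρ
  have hmu : mu m P = volume.withDensity fun x => ENNReal.ofReal (ρ x) := by
    have a0 : m.map (P 0) = _ := q0
    have a1 : m.map (P 1) = _ := q1
    have a2 : m.map (P 2) = _ := q2
    have a3 : m.map (P 3) = _ := q3
    have a4 : m.map (P 4) = _ := q4
    have g : ∀ f : E3 → ℝ, ContDiff ℝ ∞ f → Measurable fun x => ENNReal.ofReal (f x) :=
      fun f hf => hf.continuous.measurable.ennreal_ofReal
    have g0 := g _ c0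
    have g1 := g _ c1
    have g2 := g _ c2
    have g3 := g _ c3
    have g4 := g _ c4
    rw [mu, a0, a1, a2, a3, a4, ← withDensity_add_right _ g1, ← withDensity_add_right _ g2,
      ← withDensity_add_right _ g0, ← withDensity_add_right _ g3, ← withDensity_add_right _ g4,
      ← withDensity_smul _ (((((g0.add g1).add g2).add g0).add g3).add g4)]
    congr 1
    ext x
    have := p0 x
    have := p1 x
    have := p2 x
    have := p3 x
    have := p4 x
    simp only [hρ, Pi.smul_apply, Pi.add_apply, smul_eq_mul]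
    rw [ENNReal.ofReal_mul (by norm_num), ENNReal.ofReal_add (by positivity) (by positivity),
      ENNReal.ofReal_add (by positivity) (by positivity),
      ENNReal.ofReal_add (by positivity) (by positivity),
      ENNReal.ofReal_add (by positivity) (by positivity),
      ENNReal.ofReal_add (by positivity) (by positivity),
      ENNReal.ofReal_inv_of_pos (by norm_num)]
    norm_num
  rw [hmu] at main hpr
  refine ⟨ρ, ?_, ?_, fun x => ?_, hpr, main.1, main.2⟩
  · exact contDiff_const.mul (((((c0.add c1).add c2).add c0).add c3).add c4)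
  · exact (((((k0.add k1).add k2).add k0).add k3).add k4).mul_left
  · have := p0 x
    have := p1 x
    have := p2 x
    have := p3 x
    have := p4 x
    simp only [hρ]
    positivity

end Vale.Agent.P121
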